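import Mathlib

/-!
Definitions for the hand-in on Kurosh's problem for division rings.
-/

namespace Vale.Agent.Lib.P199

universe u

/-- The class of elementary amenable groups, in the form of Chou (1980): the smallest class of
groups containing the finite groups and the abelian groups, and closed under extensions and
under directed unions. -/
inductive ElemAmenable : (G : Type u) → [Group G] → Prop
  | of_finite (G : Type u) [Group G] [Finite G] : ElemAmenable G
  | of_comm (G : Type u) [Group G] (h : ∀ a b : G, a * b = b * a) : ElemAmenable G
  | of_extension (G : Type u) [Group G] (N : Subgroup G) [N.Normal] :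
      ElemAmenable N → ElemAmenable (G ⧸ N) → ElemAmenable G
  | of_directed_union (G : Type u) [Group G] (F : Set (Subgroup G))
      (hne : F.Nonempty) (hdir : DirectedOn (· ≤ ·) F) (hcover : ∀ g : G, ∃ H ∈ F, g ∈ H)
      (h : ∀ H ∈ F, ElemAmenable H) : ElemAmenable G

end Vale.Agent.Lib.P199
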