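import Mathlib
import Vale.Agent.Lib.P199.Defs

namespace Vale.Agent.Lib.P199

open Polynomial

universe u v

section Basic

variable (k : Type v) {D : Type u} [Field k] [DivisionRing D] [Algebra k D]

/-- The unital `k`-subalgebra generated by a subgroup of units. -/
def algOf (H : Subgroup Dˣ) : Subalgebra k D := Algebra.adjoin k (Units.val '' (H : Set Dˣ))

/-- Every finitely generated subgroup of `G` generates a finite-dimensional subalgebra. -/
def LocFin (G : Subgroup Dˣ) : Prop :=
  ∀ H : Subgroup Dˣ, H ≤ G → H.FG → Module.Finite k (algOf k H)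

variable {k}

theorem finite_of_le {S T : Subalgebra k D} (h : S ≤ T) [Module.Finite k T] :
    Module.Finite k S :=
  Module.Finite.of_injective (Subalgebra.inclusion h).toLinearMap
    (Subalgebra.inclusion_injective h)

theorem LocFin.mono {G G' : Subgroup Dˣ} (h : LocFin k G') (hle : G ≤ G') : LocFin k G :=
  fun H hH hfg => h H (hH.trans hle) hfg

theorem algOf_mono {H H' : Subgroup Dˣ} (h : H ≤ H') : algOf k H ≤ algOf k H' :=
  Algebra.adjoin_mono (Set.image_mono h)

theorem locFin_bot : LocFin k (⊥ : Subgroup Dˣ) := by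
  intro H hH _
  have h1 : H = ⊥ := le_bot_iff.mp hH
  subst h1
  have h2 : algOf k (⊥ : Subgroup Dˣ) = ⊥ := by
    unfold algOf
    apply le_antisymm
    · apply Algebra.adjoin_le
      rintro x ⟨u, hu, rfl⟩
      have : u = 1 := by simpa using hu
      subst this
      simp
    · exact bot_le
  rw [h2]
  infer_instance

variable [Algebra.IsAlgebraic k D]

theorem inv_mem_of_mem {A : Subalgebra k D} {x : D} (hx : x ∈ A) : x⁻¹ ∈ A := by
  by_cases h0 : x = 0
  · simp [h0]
  have hi : IsIntegral k x := (Algebra.IsAlgebraic.isAlgebraic x).isIntegral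
  have hc : (minpoly k x).coeff 0 ≠ 0 := minpoly.coeff_zero_ne_zero hi h0
  have h1 : aeval x (minpoly k x) = 0 := minpoly.aeval k x
  have h2 := congrArg (aeval x) (divX_mul_X_add (minpoly k x))
  rw [h1] at h2
  simp only [map_add, map_mul, aeval_X, aeval_C] at h2
  set q := aeval x (divX (minpoly k x)) with hq
  have hqmem : q ∈ A := by
    rw [hq, aeval_eq_sum_range]
    exact A.sum_mem fun i _ => A.smul_mem (A.pow_mem hx i) _
  have h3 : q * x = - algebraMap k D ((minpoly k x).coeff 0) := by
    rw [eq_neg_iff_add_eq_zero]; exact h2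
  have hc' : algebraMap k D ((minpoly k x).coeff 0) ≠ 0 := by
    simpa using hc
  have h5 : q = - algebraMap k D ((minpoly k x).coeff 0) * x⁻¹ := by
    rw [← h3, mul_assoc, mul_inv_cancel₀ h0, mul_one]
  have h4 : x⁻¹ = - (algebraMap k D ((minpoly k x).coeff 0))⁻¹ * q := by
    rw [h5, ← mul_assoc, neg_mul_neg, inv_mul_cancel₀ hc', one_mul]
  rw [h4, ← map_inv₀]
  exact A.mul_mem (A.neg_mem (A.algebraMap_mem _)) hqmem

end Basic

section Conj

variable {k : Type v} {D : Type u} [Field k] [DivisionRing D] [Algebra k D]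

theorem conj_mem_subalgebra (u : Dˣ) (A : Subalgebra k D) {S : Set D}
    (h : ∀ s ∈ S, (u : D) * s * ((u⁻¹ : Dˣ) : D) ∈ A) {x : D} (hx : x ∈ Algebra.adjoin k S) :
    (u : D) * x * ((u⁻¹ : Dˣ) : D) ∈ A := by
  induction hx using Algebra.adjoin_induction with
  | mem s hs => exact h s hs
  | algebraMap c =>
    have : (u : D) * algebraMap k D c * ((u⁻¹ : Dˣ) : D) = algebraMap k D c := by
      rw [Algebra.commutes c (u : D) |>.symm, mul_assoc, Units.mul_inv, mul_one]
    rw [this]
    exact A.algebraMap_mem c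
  | add a b _ _ ha hb =>
    have : (u : D) * (a + b) * ((u⁻¹ : Dˣ) : D) =
        (u : D) * a * ((u⁻¹ : Dˣ) : D) + (u : D) * b * ((u⁻¹ : Dˣ) : D) := by
      noncomm_ring
    rw [this]
    exact A.add_mem ha hb
  | mul a b _ _ ha hb =>
    have : (u : D) * (a * b) * ((u⁻¹ : Dˣ) : D) =
        ((u : D) * a * ((u⁻¹ : Dˣ) : D)) * ((u : D) * b * ((u⁻¹ : Dˣ) : D)) := by
      calc (u : D) * (a * b) * ((u⁻¹ : Dˣ) : D)
          = (u : D) * a * (1 * b) * ((u⁻¹ : Dˣ) : D) := by noncomm_ring
        _ = (u : D) * a * (((u⁻¹ : Dˣ) : D) * (u : D) * b) * ((u⁻¹ : Dˣ) : D) := by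
              rw [Units.inv_mul]
        _ = _ := by noncomm_ring
    rw [this]
    exact A.mul_mem ha hb

/-- A finite subset of the algebra generated by a subgroup lies in the algebra generated by a
finitely generated subgroup. -/
theorem exists_finset_of_mem_algOf {N : Subgroup Dˣ} {x : D} (hx : x ∈ algOf k N) :
    ∃ F : Finset Dˣ, (∀ f ∈ F, f ∈ N) ∧ x ∈ Algebra.adjoin k (Units.val '' (F : Set Dˣ)) := by
  classical
  unfold algOf at hx
  induction hx using Algebra.adjoin_induction with
  | mem s hs =>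
    obtain ⟨u, hu, rfl⟩ := hs
    refine ⟨{u}, by simpa using hu, ?_⟩
    apply Algebra.subset_adjoin
    exact ⟨u, by simp, rfl⟩
  | algebraMap c => exact ⟨∅, by simp, Subalgebra.algebraMap_mem _ c⟩
  | add a b _ _ ha hb =>
    obtain ⟨F, hF, hFa⟩ := ha
    obtain ⟨G, hG, hGb⟩ := hb
    refine ⟨F ∪ G, ?_, ?_⟩
    · intro f hf
      rcases Finset.mem_union.mp hf with h | h
      · exact hF f h
      · exact hG f h
    · apply Subalgebra.add_mem
      · exact Algebra.adjoin_mono (Set.image_mono (by simp)) hFa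
      · exact Algebra.adjoin_mono (Set.image_mono (by simp)) hGb
  | mul a b _ _ ha hb =>
    obtain ⟨F, hF, hFa⟩ := ha
    obtain ⟨G, hG, hGb⟩ := hb
    refine ⟨F ∪ G, ?_, ?_⟩
    · intro f hf
      rcases Finset.mem_union.mp hf with h | h
      · exact hF f h
      · exact hG f h
    · apply Subalgebra.mul_mem
      · exact Algebra.adjoin_mono (Set.image_mono (by simp)) hFa
      · exact Algebra.adjoin_mono (Set.image_mono (by simp)) hGb

theorem exists_finset_of_subset_algOf {N : Subgroup Dˣ} {X : Finset D}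
    (hX : ∀ x ∈ X, x ∈ algOf k N) :
    ∃ F : Finset Dˣ, (∀ f ∈ F, f ∈ N) ∧
      ∀ x ∈ X, x ∈ Algebra.adjoin k (Units.val '' (F : Set Dˣ)) := by
  classical
  induction X using Finset.induction_on with
  | empty => exact ⟨∅, by simp, by simp⟩
  | insert a s _ ih =>
    obtain ⟨F, hF, hFs⟩ := ih (fun x hx => hX x (Finset.mem_insert_of_mem hx))
    obtain ⟨G, hG, hGa⟩ := exists_finset_of_mem_algOf (hX a (Finset.mem_insert_self a s))
    refine ⟨F ∪ G, ?_, ?_⟩
    · intro f hf
      rcases Finset.mem_union.mp hf with h | h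
      · exact hF f h
      · exact hG f h
    · intro x hx
      rcases Finset.mem_insert.mp hx with rfl | h
      · exact Algebra.adjoin_mono (Set.image_mono (by simp)) hGa
      · exact Algebra.adjoin_mono (Set.image_mono (by simp)) (hFs x h)

end Conj


section CycMain

variable {k : Type v} {D : Type u} [Field k] [DivisionRing D] [Algebra k D]
  [Algebra.IsAlgebraic k D]

/-- Conjugation by `t ^ i`. -/
private def sg (t : Dˣ) (i : ℕ) (x : D) : D := ((t ^ i : Dˣ) : D) * x * (((t ^ i)⁻¹ : Dˣ) : D)

private theorem sg_zero (t : Dˣ) (x : D) : sg t 0 x = x := by simp [sg]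

private theorem sg_comm (t : Dˣ) (i : ℕ) (x : D) :
    sg t i x * (t : D) ^ i = (t : D) ^ i * x := by
  have : (t : D) ^ i = ((t ^ i : Dˣ) : D) := by simp
  simp only [sg, this]
  rw [mul_assoc, Units.inv_mul, mul_one]

private theorem sg_succ (t : Dˣ) (i : ℕ) (x : D) :
    (t : D) * sg t i x * ((t⁻¹ : Dˣ) : D) = sg t (i + 1) x := by
  simp only [sg]
  have h1 : ((t ^ (i + 1) : Dˣ) : D) = (t : D) * ((t ^ i : Dˣ) : D) := by
    rw [pow_succ', Units.val_mul]
  have h2 : (((t ^ (i + 1))⁻¹ : Dˣ) : D) = (((t ^ i)⁻¹ : Dˣ) : D) * ((t⁻¹ : Dˣ) : D) := by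
    rw [pow_succ', mul_inv_rev, Units.val_mul]
  rw [h1, h2]
  noncomm_ring

/-- The main lemma: adjoining an algebraic normalizing element preserves local finiteness. -/
theorem cyc_finite (N : Subgroup Dˣ) (hN : LocFin k N) (t : Dˣ)
    (ht : ∀ n ∈ N, t * n * t⁻¹ ∈ N) (Y : Finset Dˣ) (hY : ∀ y ∈ Y, y ∈ N) :
    Module.Finite k (algOf k (Subgroup.closure (insert t (Y : Set Dˣ)))) := by
  classical
  set E : Subalgebra k D := algOf k N with hE
  -- conjugation preserves E
  have hconj1 : ∀ x ∈ E, (t : D) * x * ((t⁻¹ : Dˣ) : D) ∈ E := by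
    intro x hx
    refine conj_mem_subalgebra t E ?_ hx
    rintro s ⟨n, hn, rfl⟩
    apply Algebra.subset_adjoin
    exact ⟨t * n * t⁻¹, ht n hn, by simp⟩
  have hsg : ∀ (i : ℕ), ∀ x ∈ E, sg t i x ∈ E := by
    intro i
    induction i with
    | zero => intro x hx; rwa [sg_zero]
    | succ i ih =>
      intro x hx
      rw [← sg_succ]
      exact hconj1 _ (ih x hx)
  -- the relation
  let Q : ℕ → Prop := fun m =>
    ∃ e : ℕ → D, (∀ i, e i ∈ E) ∧ (t : D) ^ m = ∑ i ∈ Finset.range m, e i * (t : D) ^ i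
  have hQ : ∃ m, Q m := by
    have hi : IsIntegral k (t : D) := (Algebra.IsAlgebraic.isAlgebraic (t : D)).isIntegral
    have hmon := minpoly.monic hi
    have h0 := minpoly.aeval k (t : D)
    rw [aeval_eq_sum_range, Finset.sum_range_succ] at h0
    refine ⟨(minpoly k (t : D)).natDegree, fun i =>
      algebraMap k D (- (minpoly k (t : D)).coeff i), fun i => E.algebraMap_mem _, ?_⟩
    rw [hmon.coeff_natDegree, one_smul] at h0
    rw [eq_comm, ← sub_eq_zero]
    have : ∑ i ∈ Finset.range (minpoly k (t : D)).natDegree,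
        algebraMap k D (- (minpoly k (t : D)).coeff i) * (t : D) ^ i =
        - ∑ i ∈ Finset.range (minpoly k (t : D)).natDegree,
          (minpoly k (t : D)).coeff i • (t : D) ^ i := by
      rw [← Finset.sum_neg_distrib]
      apply Finset.sum_congr rfl
      intro i _
      rw [map_neg, neg_mul, Algebra.smul_def]
    rw [this, neg_sub_left, neg_eq_zero, add_comm]
    exact h0
  obtain ⟨m, hm, hmin⟩ : ∃ m, Q m ∧ ∀ j < m, ¬ Q j :=
    ⟨Nat.find hQ, Nat.find_spec hQ, fun j hj => Nat.find_min hQ hj⟩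
  obtain ⟨e, heE, hrel⟩ := hm
  have hm0 : m ≠ 0 := by
    rintro rfl
    simp at hrel
  obtain ⟨m', rfl⟩ := Nat.exists_eq_succ_of_ne_zero hm0
  -- the constant coefficient is nonzero
  have he0 : e 0 ≠ 0 := by
    intro h0
    apply hmin m' (Nat.lt_succ_self m')
    refine ⟨fun i => e (i + 1), fun i => heE _, ?_⟩
    have ht0 : (t : D) ≠ 0 := t.ne_zero
    apply mul_right_cancel₀ ht0
    rw [← pow_succ, hrel, Finset.sum_range_succ' _ m', h0]
    simp only [pow_zero, mul_one, add_zero, Finset.sum_mul, pow_succ, mul_assoc]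
  -- independence of powers
  have hindep : ∀ c : ℕ → D, (∀ i, c i ∈ E) →
      ∑ i ∈ Finset.range (m' + 1), c i * (t : D) ^ i = 0 → ∀ i < m' + 1, c i = 0 := by
    intro c hc hsum
    by_contra hne
    push Not at hne
    obtain ⟨i0, hi0, hi0ne⟩ := hne
    let S := (Finset.range (m' + 1)).filter (fun i => c i ≠ 0)
    have hS : S.Nonempty := ⟨i0, by simp [S, Finset.mem_range.mp (Finset.mem_range.mpr hi0), hi0ne, hi0]⟩
    let j := S.max' hS
    have hjS : j ∈ S := S.max'_mem hS
    have hj1 : j < m' + 1 := by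
      have := (Finset.mem_filter.mp hjS).1
      exact Finset.mem_range.mp this
    have hj2 : c j ≠ 0 := (Finset.mem_filter.mp hjS).2
    have hj3 : ∀ i, j < i → i < m' + 1 → c i = 0 := by
      intro i hi hi2
      by_contra hci
      have : i ∈ S := by simp [S, hi2, hci]
      have := S.le_max' i this
      omega
    have hsplit : ∑ i ∈ Finset.range (j + 1), c i * (t : D) ^ i = 0 := by
      rw [← hsum]
      apply Finset.sum_subset
      · intro i hi
        have := Finset.mem_range.mp hi
        exact Finset.mem_range.mpr (by omega)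
      · intro i hi hi2
        have h1 := Finset.mem_range.mp hi
        have h2 : ¬ i < j + 1 := fun h => hi2 (Finset.mem_range.mpr h)
        rw [hj3 i (by omega) h1, zero_mul]
    rw [Finset.sum_range_succ] at hsplit
    apply hmin j (by omega)
    refine ⟨fun i => - ((c j)⁻¹ * c i), fun i => ?_, ?_⟩
    · exact E.neg_mem (E.mul_mem (inv_mem_of_mem (hc j)) (hc i))
    · have h3 : c j * (t : D) ^ j = - ∑ i ∈ Finset.range j, c i * (t : D) ^ i := by
        rw [eq_neg_iff_add_eq_zero, add_comm]; exact hsplit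
      have h4 : (t : D) ^ j = (c j)⁻¹ * (c j * (t : D) ^ j) := by
        rw [← mul_assoc, inv_mul_cancel₀ hj2, one_mul]
      rw [h4, h3, mul_neg, Finset.mul_sum, ← Finset.sum_neg_distrib]
      apply Finset.sum_congr rfl
      intro i _
      rw [neg_mul, mul_assoc]
  -- the key relation
  have hkey : ∀ x ∈ E, sg t (m' + 1) x = e 0 * x * (e 0)⁻¹ := by
    intro x hx
    let c : ℕ → D := fun i => sg t (m' + 1) x * e i - e i * sg t i x
    have hcE : ∀ i, c i ∈ E := fun i =>
      E.sub_mem (E.mul_mem (hsg _ x hx) (heE i)) (E.mul_mem (heE i) (hsg i x hx))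
    have hsum : ∑ i ∈ Finset.range (m' + 1), c i * (t : D) ^ i = 0 := by
      have h1 : sg t (m' + 1) x * (t : D) ^ (m' + 1) = (t : D) ^ (m' + 1) * x := sg_comm t _ x
      simp only [c, sub_mul, Finset.sum_sub_distrib]
      rw [sub_eq_zero]
      have h2 : ∑ i ∈ Finset.range (m' + 1), sg t (m' + 1) x * e i * (t : D) ^ i =
          sg t (m' + 1) x * (t : D) ^ (m' + 1) := by
        rw [hrel, Finset.mul_sum]
        apply Finset.sum_congr rfl
        intro i _
        rw [mul_assoc]
      have h3 : ∑ i ∈ Finset.range (m' + 1), e i * sg t i x * (t : D) ^ i =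
          (t : D) ^ (m' + 1) * x := by
        rw [hrel, Finset.sum_mul]
        apply Finset.sum_congr rfl
        intro i _
        rw [mul_assoc, sg_comm, mul_assoc]
      rw [h2, h3, h1]
    have h0 := hindep c hcE hsum 0 (Nat.succ_pos m')
    simp only [c, sg_zero] at h0
    have h1 : sg t (m' + 1) x * e 0 = e 0 * x := sub_eq_zero.mp h0
    rw [← h1, mul_assoc, mul_inv_cancel₀ he0, mul_one]
  -- the finite generating set
  let Y' : Finset D := (Y.image Units.val) ∪ {e 0, (e 0)⁻¹}
  have hY'E : ∀ y ∈ Y', y ∈ E := by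
    intro y hy
    rcases Finset.mem_union.mp hy with h | h
    · obtain ⟨u, hu, rfl⟩ := Finset.mem_image.mp h
      exact Algebra.subset_adjoin ⟨u, hY u hu, rfl⟩
    · simp only [Finset.mem_insert, Finset.mem_singleton] at h
      rcases h with rfl | rfl
      · exact heE 0
      · exact inv_mem_of_mem (heE 0)
  let X : Finset D := ((Finset.range (m' + 1)) ×ˢ Y').image (fun p => sg t p.1 p.2)
  have hXE : ∀ x ∈ X, x ∈ E := by
    intro x hx
    obtain ⟨p, hp, rfl⟩ := Finset.mem_image.mp hx
    exact hsg _ _ (hY'E _ (Finset.mem_product.mp hp).2)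
  have hY'X : ∀ y ∈ Y', y ∈ X := by
    intro y hy
    refine Finset.mem_image.mpr ⟨(0, y), ?_, sg_zero t y⟩
    exact Finset.mem_product.mpr ⟨by simp, hy⟩
  let E1 : Subalgebra k D := Algebra.adjoin k (X : Set D)
  -- E1 is finite
  have hE1fin : Module.Finite k E1 := by
    obtain ⟨F, hF, hFX⟩ := exists_finset_of_subset_algOf (k := k) hXE
    have hle : Subgroup.closure (F : Set Dˣ) ≤ N :=
      (Subgroup.closure_le N).mpr (fun f hf => hF f hf)
    have hfin := hN (Subgroup.closure (F : Set Dˣ)) hle ⟨F, rfl⟩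
    have hle2 : E1 ≤ algOf k (Subgroup.closure (F : Set Dˣ)) := by
      apply Algebra.adjoin_le
      intro x hx
      exact Algebra.adjoin_mono (Set.image_mono Subgroup.subset_closure) (hFX x hx)
    exact finite_of_le hle2
  -- E1 is stable
  have hE1stable : ∀ x ∈ E1, (t : D) * x * ((t⁻¹ : Dˣ) : D) ∈ E1 := by
    intro x hx
    refine conj_mem_subalgebra t E1 ?_ hx
    intro s hs
    obtain ⟨p, hp, rfl⟩ := Finset.mem_image.mp hs
    obtain ⟨hp1, hp2⟩ := Finset.mem_product.mp hp
    rw [sg_succ]
    by_cases hlt : p.1 + 1 < m' + 1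
    · apply Algebra.subset_adjoin
      exact Finset.mem_coe.mpr (Finset.mem_image.mpr
        ⟨(p.1 + 1, p.2), Finset.mem_product.mpr ⟨Finset.mem_range.mpr hlt, hp2⟩, rfl⟩)
    · have heq : p.1 + 1 = m' + 1 := by
        have := Finset.mem_range.mp hp1
        omega
      rw [heq, hkey _ (hY'E _ hp2)]
      have h0 : e 0 ∈ E1 := Algebra.subset_adjoin (Finset.mem_coe.mpr (hY'X _
        (Finset.mem_union_right _ (by simp))))
      have h1 : (e 0)⁻¹ ∈ E1 := Algebra.subset_adjoin (Finset.mem_coe.mpr (hY'X _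
        (Finset.mem_union_right _ (by simp))))
      have h2 : p.2 ∈ E1 := Algebra.subset_adjoin (Finset.mem_coe.mpr (hY'X _ hp2))
      exact E1.mul_mem (E1.mul_mem h0 h2) h1
  -- K = k[t]
  let K : Subalgebra k D := Algebra.adjoin k {(t : D)}
  have hKfg : (Subalgebra.toSubmodule K).FG :=
    IsIntegral.fg_adjoin_singleton (Algebra.IsAlgebraic.isAlgebraic (t : D)).isIntegral
  have htK : (t : D) ∈ K := Algebra.subset_adjoin rfl
  have hE1fg : (Subalgebra.toSubmodule E1).FG := by
    exact Module.Finite.iff_fg.mp hE1fin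
  let V : Submodule k D := Subalgebra.toSubmodule E1 * Subalgebra.toSubmodule K
  have hVfg : V.FG := hE1fg.mul hKfg
  have hEV : ∀ a ∈ E1, ∀ b ∈ K, a * b ∈ V := fun a ha b hb => Submodule.mul_mem_mul ha hb
  -- left multiplication by E1 preserves V
  have hLE : ∀ a ∈ E1, ∀ v ∈ V, a * v ∈ V := by
    intro a ha v hv
    induction hv using Submodule.mul_induction_on' with
    | mem_mul_mem x hx y hy =>
      rw [← mul_assoc]
      exact hEV _ (E1.mul_mem ha hx) _ hy
    | add x _ y _ hx hy =>
      rw [mul_add]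
      exact V.add_mem hx hy
  -- left multiplication by t preserves V
  have hLt : ∀ v ∈ V, (t : D) * v ∈ V := by
    intro v hv
    induction hv using Submodule.mul_induction_on' with
    | mem_mul_mem x hx y hy =>
      have : (t : D) * (x * y) = ((t : D) * x * ((t⁻¹ : Dˣ) : D)) * ((t : D) * y) := by
        calc (t : D) * (x * y) = (t : D) * x * (1 * y) := by noncomm_ring
          _ = (t : D) * x * (((t⁻¹ : Dˣ) : D) * (t : D) * y) := by rw [Units.inv_mul]
          _ = _ := by noncomm_ring
      rw [this]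
      exact hEV _ (hE1stable x hx) _ (K.mul_mem htK hy)
    | add x _ y _ hx hy =>
      rw [mul_add]
      exact V.add_mem hx hy
  have hLK : ∀ r ∈ K, ∀ v ∈ V, r * v ∈ V := by
    intro r hr
    induction hr using Algebra.adjoin_induction with
    | mem s hs =>
      have : s = (t : D) := hs
      rw [this]
      exact hLt
    | algebraMap c =>
      intro v hv
      rw [← Algebra.smul_def]
      exact V.smul_mem c hv
    | add a b _ _ ha hb =>
      intro v hv
      rw [add_mul]
      exact V.add_mem (ha v hv) (hb v hv)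
    | mul a b _ _ ha hb =>
      intro v hv
      rw [mul_assoc]
      exact ha _ (hb v hv)
  have hVmul : ∀ a ∈ V, ∀ b ∈ V, a * b ∈ V := by
    intro a ha b hb
    induction ha using Submodule.mul_induction_on' with
    | mem_mul_mem x hx y hy =>
      rw [mul_assoc]
      exact hLE x hx _ (hLK y hy b hb)
    | add x _ y _ hx hy =>
      rw [add_mul]
      exact V.add_mem hx hy
  have h1V : ∀ c : k, algebraMap k D c ∈ V := by
    intro c
    have := hEV _ (E1.algebraMap_mem c) 1 K.one_mem
    rwa [mul_one] at this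
  let A1 : Subalgebra k D :=
    { carrier := V
      mul_mem' := fun ha hb => hVmul _ ha _ hb
      add_mem' := fun ha hb => V.add_mem ha hb
      algebraMap_mem' := h1V }
  have hA1fin : Module.Finite k A1 := by
    exact Module.Finite.iff_fg.mpr (show (Subalgebra.toSubmodule A1).FG from hVfg)
  have htA1 : (t : D) ∈ A1 := by
    have := hEV 1 E1.one_mem _ htK
    rwa [one_mul] at this
  have hYA1 : ∀ y ∈ Y, (y : D) ∈ A1 := by
    intro y hy
    have hy1 : (y : D) ∈ E1 := Algebra.subset_adjoin (Finset.mem_coe.mpr (hY'X _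
      (Finset.mem_union_left _ (Finset.mem_image_of_mem _ hy))))
    have := hEV _ hy1 1 K.one_mem
    rwa [mul_one] at this
  have hclos : ∀ g ∈ Subgroup.closure (insert t (Y : Set Dˣ)), (g : D) ∈ A1 := by
    intro g hg
    induction hg using Subgroup.closure_induction with
    | mem x hx =>
      rcases hx with rfl | hx
      · exact htA1
      · exact hYA1 x hx
    | one => exact A1.one_mem
    | mul x y _ _ hx hy =>
      rw [Units.val_mul]
      exact A1.mul_mem hx hy
    | inv x _ hx =>
      have : ((x⁻¹ : Dˣ) : D) = (x : D)⁻¹ := by simp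
      rw [this]
      exact inv_mem_of_mem hx
  have hle : algOf k (Subgroup.closure (insert t (Y : Set Dˣ))) ≤ A1 := by
    apply Algebra.adjoin_le
    rintro x ⟨g, hg, rfl⟩
    exact hclos g hg
  exact finite_of_le hle

end CycMain

end Vale.Agent.Lib.P199
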