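import Mathlib
import Vale.Agent.Lib.P199.Defs
import Vale.Agent.Lib.P199.Cyc

namespace Vale.Agent.Lib.P199

universe u v

section Groups

variable {Γ : Type*} [Group Γ]

theorem zpow_conj_mem (N : Subgroup Γ) (t : Γ) (h1 : ∀ n ∈ N, t * n * t⁻¹ ∈ N)
    (h2 : ∀ n ∈ N, t⁻¹ * n * t ∈ N) (a : ℤ) : ∀ n ∈ N, t ^ a * n * t ^ (-a) ∈ N := by
  induction a using Int.induction_on with
  | zero => intro n hn; simpa using hn
  | succ i ih =>
    intro n hn
    have h3 := h1 _ (ih n hn)
    have h4 : t ^ ((i : ℤ) + 1) * n * t ^ (-((i : ℤ) + 1)) =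
        t * (t ^ (i : ℤ) * n * t ^ (-(i : ℤ))) * t⁻¹ := by
      group
    rw [h4]
    exact h3
  | pred i ih =>
    intro n hn
    have h3 := h2 _ (ih n hn)
    have h4 : t ^ (-(i : ℤ) - 1) * n * t ^ (-(-(i : ℤ) - 1)) =
        t⁻¹ * (t ^ (-(i : ℤ)) * n * t ^ (- -(i : ℤ))) * t := by
      group
    rw [h4]
    exact h3

theorem mem_sup_zpowers (N : Subgroup Γ) (t : Γ) (h1 : ∀ n ∈ N, t * n * t⁻¹ ∈ N)
    (h2 : ∀ n ∈ N, t⁻¹ * n * t ∈ N) {x : Γ} (hx : x ∈ N ⊔ Subgroup.zpowers t) :
    ∃ n ∈ N, ∃ a : ℤ, x = n * t ^ a := by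
  have hc := zpow_conj_mem N t h1 h2
  let S : Subgroup Γ :=
    { carrier := {x | ∃ n ∈ N, ∃ a : ℤ, x = n * t ^ a}
      mul_mem' := by
        rintro x y ⟨n, hn, a, rfl⟩ ⟨m, hm, b, rfl⟩
        refine ⟨n * (t ^ a * m * t ^ (-a)), N.mul_mem hn (hc a m hm), a + b, ?_⟩
        rw [zpow_add, zpow_neg]
        group
      one_mem' := ⟨1, N.one_mem, 0, by simp⟩
      inv_mem' := by
        rintro x ⟨n, hn, a, rfl⟩
        refine ⟨t ^ (-a) * n⁻¹ * t ^ (- -a), hc (-a) _ (N.inv_mem hn), -a, ?_⟩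
        group }
  have hle : N ⊔ Subgroup.zpowers t ≤ S := by
    apply sup_le
    · intro n hn
      exact ⟨n, hn, 0, by simp⟩
    · rintro _ ⟨a, rfl⟩
      exact ⟨1, N.one_mem, a, by simp⟩
  exact hle hx

end Groups

section Steps

variable {k : Type v} {D : Type u} [Field k] [DivisionRing D] [Algebra k D]
  [Algebra.IsAlgebraic k D]

theorem locFin_sup (N : Subgroup Dˣ) (hN : LocFin k N) (t : Dˣ)
    (h1 : ∀ n ∈ N, t * n * t⁻¹ ∈ N) (h2 : ∀ n ∈ N, t⁻¹ * n * t ∈ N) :
    LocFin k (N ⊔ Subgroup.zpowers t) := by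
  classical
  intro H hH hfg
  obtain ⟨T, rfl⟩ := hfg
  have hex : ∀ x : Dˣ, ∃ n : Dˣ, x ∈ T → n ∈ N ∧ ∃ a : ℤ, x = n * t ^ a := by
    intro x
    by_cases hx : x ∈ T
    · obtain ⟨n, hn, a, ha⟩ :=
        mem_sup_zpowers N t h1 h2 (hH (Subgroup.subset_closure hx))
      exact ⟨n, fun _ => ⟨hn, a, ha⟩⟩
    · exact ⟨1, fun h => absurd h hx⟩
  choose f hf using hex
  let Y : Finset Dˣ := T.image f
  have hY : ∀ y ∈ Y, y ∈ N := by
    intro y hy
    obtain ⟨x, hx, rfl⟩ := Finset.mem_image.mp hy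
    exact (hf x hx).1
  have hfin := cyc_finite (k := k) N hN t h1 Y hY
  have hle : Subgroup.closure (T : Set Dˣ) ≤ Subgroup.closure (insert t (Y : Set Dˣ)) := by
    rw [Subgroup.closure_le]
    intro x hx
    obtain ⟨a, ha⟩ := (hf x hx).2
    rw [ha]
    apply Subgroup.mul_mem
    · apply Subgroup.subset_closure
      right
      exact Finset.mem_coe.mpr (Finset.mem_image_of_mem f hx)
    · exact Subgroup.zpow_mem _ (Subgroup.subset_closure (Set.mem_insert _ _)) a
  exact finite_of_le (algOf_mono hle)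

theorem locFin_of_comm_quot (G N : Subgroup Dˣ) (hNG : N ≤ G)
    (hcomm : ∀ a ∈ G, ∀ b ∈ G, a * b * a⁻¹ * b⁻¹ ∈ N) (hN : LocFin k N) : LocFin k G := by
  classical
  have hstep : ∀ T : Finset Dˣ, (∀ x ∈ T, x ∈ G) → LocFin k (N ⊔ Subgroup.closure (T : Set Dˣ)) := by
    intro T
    induction T using Finset.induction_on with
    | empty =>
      intro _
      simpa using hN
    | insert t s _ ih =>
      intro hT
      have hts : ∀ x ∈ s, x ∈ G := fun x hx => hT x (Finset.mem_insert_of_mem hx)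
      have htG : t ∈ G := hT t (Finset.mem_insert_self t s)
      set N' := N ⊔ Subgroup.closure (s : Set Dˣ) with hN'
      have hN'G : N' ≤ G := sup_le hNG ((Subgroup.closure_le G).mpr (fun x hx => hts x hx))
      have h1 : ∀ n ∈ N', t * n * t⁻¹ ∈ N' := by
        intro n hn
        have h3 : t * n * t⁻¹ * n⁻¹ ∈ N := hcomm t htG n (hN'G hn)
        have h4 : t * n * t⁻¹ = (t * n * t⁻¹ * n⁻¹) * n := by group
        rw [h4]
        exact N'.mul_mem (le_sup_left (a := N) h3) hn
      have h2 : ∀ n ∈ N', t⁻¹ * n * t ∈ N' := by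
        intro n hn
        have h3 : t⁻¹ * n * t⁻¹⁻¹ * n⁻¹ ∈ N := hcomm t⁻¹ (G.inv_mem htG) n (hN'G hn)
        have h4 : t⁻¹ * n * t = (t⁻¹ * n * t⁻¹⁻¹ * n⁻¹) * n := by group
        rw [h4]
        exact N'.mul_mem (le_sup_left (a := N) h3) hn
      have h5 := locFin_sup N' (ih hts) t h1 h2
      apply h5.mono
      apply sup_le
      · exact le_sup_of_le_left le_sup_left
      · rw [Subgroup.closure_le]
        intro x hx
        rcases Finset.mem_insert.mp (Finset.mem_coe.mp hx) with rfl | h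
        · exact (le_sup_right : Subgroup.zpowers x ≤ N' ⊔ Subgroup.zpowers x) (Subgroup.mem_zpowers x)
        · have h6 : x ∈ N' :=
            (le_sup_right : Subgroup.closure (s : Set Dˣ) ≤ N')
              (Subgroup.subset_closure (Finset.mem_coe.mpr h))
          exact (le_sup_left : N' ≤ N' ⊔ Subgroup.zpowers t) h6
  intro H hH hfg
  obtain ⟨T, rfl⟩ := hfg
  have hT : ∀ x ∈ T, x ∈ G := fun x hx => hH (Subgroup.subset_closure hx)
  exact hstep T hT _ le_sup_right ⟨T, rfl⟩

/-- The submodule spanned by a subgroup is the algebra it generates. -/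
theorem algOf_toSubmodule (H : Subgroup Dˣ) :
    Subalgebra.toSubmodule (algOf k H) = Submodule.span k (Units.val '' (H : Set Dˣ)) := by
  unfold algOf
  rw [Algebra.adjoin_eq_span]
  congr 1
  have : Units.val '' (H : Set Dˣ) = ((H.toSubmonoid.map (Units.coeHom D) : Submonoid D) : Set D) := by
    ext x; simp
  rw [this, Submonoid.closure_eq]

theorem locFin_of_finite_index (G : Subgroup Dˣ) {Q : Type u} [Group Q] [Finite Q] (φ : G →* Q)
    (hN : LocFin k (φ.ker.map G.subtype)) : LocFin k G := by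
  classical
  intro H hH hfg
  have hfg' : Group.FG H := (Group.fg_iff_subgroup_fg H).mpr hfg
  let ψ : H →* Q := φ.comp (Subgroup.inclusion hH)
  have : ψ.ker.FiniteIndex := inferInstance
  have hker : Group.FG ψ.ker := Subgroup.fg_of_index_ne_zero ψ.ker
  have hker' : (ψ.ker.map H.subtype).FG := by
    obtain ⟨S, hS⟩ := (Group.fg_iff_subgroup_fg _).mp hker
    classical
    exact ⟨S.image H.subtype, by rw [Finset.coe_image, ← MonoidHom.map_closure, hS]⟩
  have hle : ψ.ker.map H.subtype ≤ φ.ker.map G.subtype := by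
    rintro _ ⟨x, hx, rfl⟩
    refine ⟨Subgroup.inclusion hH x, hx, rfl⟩
  have hE0 := hN _ hle hker'
  set H0 := ψ.ker.map H.subtype with hH0
  set E0 := algOf k H0 with hE0def
  have : Finite (H ⧸ ψ.ker) := Subgroup.finite_quotient_of_finiteIndex
  let τ : H ⧸ ψ.ker → H := fun q => Quotient.out q
  let V : Submodule k D := ⨆ q : H ⧸ ψ.ker,
    Submodule.span k {((τ q : H) : Dˣ).val} * Subalgebra.toSubmodule E0
  have hVfg : V.FG := by
    apply Submodule.fg_iSup
    intro q
    exact (Submodule.fg_span_singleton _).mul (Module.Finite.iff_fg.mp hE0)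
  have hHV : Subalgebra.toSubmodule (algOf k H) ≤ V := by
    rw [algOf_toSubmodule, Submodule.span_le]
    rintro _ ⟨h, hh, rfl⟩
    let q : H ⧸ ψ.ker := QuotientGroup.mk ⟨h, hh⟩
    have hq : (τ q)⁻¹ * ⟨h, hh⟩ ∈ ψ.ker := by
      have : (QuotientGroup.mk (τ q) : H ⧸ ψ.ker) = QuotientGroup.mk ⟨h, hh⟩ :=
        Quotient.out_eq q
      exact QuotientGroup.eq.mp this
    have h0 : ((((τ q)⁻¹ * ⟨h, hh⟩ : H) : Dˣ)) ∈ H0 := ⟨_, hq, rfl⟩
    have h1 : (((((τ q)⁻¹ * ⟨h, hh⟩ : H) : Dˣ)) : D) ∈ E0 :=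
      Algebra.subset_adjoin ⟨_, h0, rfl⟩
    have h2 : (h : D) = (((τ q : H) : Dˣ) : D) * (((((τ q)⁻¹ * ⟨h, hh⟩ : H) : Dˣ)) : D) := by
      rw [← Units.val_mul, ← Subgroup.coe_mul, mul_inv_cancel_left]
    have h3 : (h : D) ∈ Submodule.span k {((τ q : H) : Dˣ).val} * Subalgebra.toSubmodule E0 := by
      rw [h2]
      exact Submodule.mul_mem_mul (Submodule.mem_span_singleton_self _) h1
    exact (le_iSup (fun q : H ⧸ ψ.ker =>
      Submodule.span k {((τ q : H) : Dˣ).val} * Subalgebra.toSubmodule E0) q) h3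
  have : Module.Finite k V := Module.Finite.iff_fg.mpr hVfg
  have := Submodule.finiteDimensional_of_le hHV
  exact this

/-- Restriction to the preimage of a subgroup. -/
theorem restrict_aux (G : Subgroup Dˣ) {Q : Type u} [Group Q] (φ : G →* Q) (Q0 : Subgroup Q)
    (IH : ∀ (G' : Subgroup Dˣ) (φ' : G' →* Q0),
      LocFin k (φ'.ker.map G'.subtype) → LocFin k G')
    (hker : LocFin k (φ.ker.map G.subtype)) : LocFin k ((Q0.comap φ).map G.subtype) := by
  let e := Subgroup.equivMapOfInjective (Q0.comap φ) G.subtype G.subtype_injective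
  let φ' : ((Q0.comap φ).map G.subtype : Subgroup Dˣ) →* Q0 :=
    (φ.subgroupComap Q0).comp e.symm.toMonoidHom
  apply IH _ φ'
  apply hker.mono
  rintro _ ⟨x, hx, rfl⟩
  have hx' : φ' x = 1 := hx
  have h1 : ((φ' x : Q0) : Q) = φ ((e.symm x : Q0.comap φ) : G) := rfl
  rw [hx'] at h1
  refine ⟨((e.symm x : Q0.comap φ) : G), ?_, ?_⟩
  · show φ _ = 1
    rw [← h1]; rfl
  · show (((e.symm x : Q0.comap φ) : G) : Dˣ) = (x : Dˣ)
    exact congrArg Subtype.val (e.apply_symm_apply x)

/-- The induction over the class of elementary amenable groups. -/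
theorem main_ind {Q : Type u} [Group Q] (hQ : ElemAmenable Q) :
    ∀ (G : Subgroup Dˣ) (φ : G →* Q), LocFin k (φ.ker.map G.subtype) → LocFin k G := by
  induction hQ with
  | of_finite Q =>
    intro G φ hN
    exact locFin_of_finite_index G φ hN
  | of_comm Q hc =>
    intro G φ hN
    apply locFin_of_comm_quot G (φ.ker.map G.subtype) _ _ hN
    · rintro _ ⟨x, _, rfl⟩
      exact x.2
    · intro a ha b hb
      refine ⟨⟨a, ha⟩ * ⟨b, hb⟩ * ⟨a, ha⟩⁻¹ * ⟨b, hb⟩⁻¹, ?_, rfl⟩
      show φ _ = 1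
      simp only [map_mul, map_inv]
      rw [hc (φ ⟨a, ha⟩) (φ ⟨b, hb⟩)]
      group
  | of_extension Q N _ _ ih1 ih2 =>
    intro G φ hN
    have h1 : LocFin k ((N.comap φ).map G.subtype) := restrict_aux G φ N ih1 hN
    apply ih2 G ((QuotientGroup.mk' N).comp φ)
    apply h1.mono
    rintro _ ⟨x, hx, rfl⟩
    refine ⟨x, ?_, rfl⟩
    have : ((QuotientGroup.mk' N).comp φ) x = 1 := hx
    simpa using this
  | of_directed_union Q F hne hdir hcover _ ih =>
    intro G φ hN
    intro H hH hfg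
    obtain ⟨T, rfl⟩ := hfg
    classical
    have hcov : ∃ Q0 ∈ F, ∀ x (hx : x ∈ T), φ ⟨x, hH (Subgroup.subset_closure hx)⟩ ∈ Q0 := by
      have haux : ∀ T' : Finset Dˣ, (∀ x ∈ T', x ∈ T) →
          ∃ Q0 ∈ F, ∀ x (hx : x ∈ T) , x ∈ T' → φ ⟨x, hH (Subgroup.subset_closure hx)⟩ ∈ Q0 := by
        intro T'
        induction T' using Finset.induction_on with
        | empty =>
          intro _
          obtain ⟨Q0, hQ0⟩ := hne
          exact ⟨Q0, hQ0, by simp⟩
        | insert a s _ ih2 =>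
          intro hs
          obtain ⟨Q1, hQ1, hQ1s⟩ := ih2 (fun x hx => hs x (Finset.mem_insert_of_mem hx))
          have ha : a ∈ T := hs a (Finset.mem_insert_self a s)
          obtain ⟨Q2, hQ2, hQ2a⟩ := hcover (φ ⟨a, hH (Subgroup.subset_closure ha)⟩)
          obtain ⟨Q3, hQ3, h13, h23⟩ := hdir Q1 hQ1 Q2 hQ2
          refine ⟨Q3, hQ3, ?_⟩
          intro x hx hx2
          rcases Finset.mem_insert.mp hx2 with rfl | h
          · exact h23 hQ2a
          · exact h13 (hQ1s x hx h)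
      obtain ⟨Q0, hQ0, h⟩ := haux T (fun x hx => hx)
      exact ⟨Q0, hQ0, fun x hx => h x hx hx⟩
    obtain ⟨Q0, hQ0, hQ0T⟩ := hcov
    have h1 : LocFin k ((Q0.comap φ).map G.subtype) := restrict_aux G φ Q0 (ih Q0 hQ0) hN
    refine h1 _ ?_ ⟨T, rfl⟩
    rw [Subgroup.closure_le]
    intro x hx
    exact ⟨⟨x, hH (Subgroup.subset_closure hx)⟩, hQ0T x hx, rfl⟩

/-- Main theorem, general form. -/
theorem locFin_of_elemAmenable (G : Subgroup Dˣ) (hG : ElemAmenable G) : LocFin k G := by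
  apply main_ind hG G (MonoidHom.id G)
  have : (MonoidHom.id G).ker.map G.subtype = ⊥ := by
    rw [MonoidHom.ker_id]
    simp
  rw [this]
  exact locFin_bot

theorem finite_adjoin_of_elemAmenable (S : Set Dˣ) (hS : S.Finite)
    (hG : ElemAmenable (Subgroup.closure S)) :
    Module.Finite k (Algebra.adjoin k (Units.val '' S)) := by
  have h1 : LocFin k (Subgroup.closure S) := locFin_of_elemAmenable _ hG
  have h2 := h1 (Subgroup.closure S) le_rfl ⟨hS.toFinset, by simp⟩
  have h3 : Algebra.adjoin k (Units.val '' S) ≤ algOf k (Subgroup.closure S) :=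
    Algebra.adjoin_mono (Set.image_mono Subgroup.subset_closure)
  exact finite_of_le h3

/-- Adjoining generators versus the group they generate. -/
theorem finite_algOf_closure_of_finite_adjoin (S : Set Dˣ)
    (h : Module.Finite k (Algebra.adjoin k (Units.val '' S))) :
    Module.Finite k (algOf k (Subgroup.closure S)) := by
  have h1 : ∀ g ∈ Subgroup.closure S, (g : D) ∈ Algebra.adjoin k (Units.val '' S) := by
    intro g hg
    induction hg using Subgroup.closure_induction with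
    | mem x hx => exact Algebra.subset_adjoin ⟨x, hx, rfl⟩
    | one => exact Subalgebra.one_mem _
    | mul x y _ _ hx hy =>
      rw [Units.val_mul]
      exact Subalgebra.mul_mem _ hx hy
    | inv x _ hx =>
      have : ((x⁻¹ : Dˣ) : D) = (x : D)⁻¹ := by simp
      rw [this]
      exact inv_mem_of_mem hx
  have h2 : algOf k (Subgroup.closure S) ≤ Algebra.adjoin k (Units.val '' S) := by
    apply Algebra.adjoin_le
    rintro x ⟨g, hg, rfl⟩
    exact h1 g hg
  exact finite_of_le h2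

/-- Extension closure stated with finite subsets. -/
theorem extension_closure (G : Subgroup Dˣ) {Q : Type u} [Group Q]
    (hQ : ElemAmenable Q) (φ : G →* Q)
    (hker : ∀ T : Set Dˣ, T.Finite → T ⊆ (φ.ker.map G.subtype : Subgroup Dˣ) →
      Module.Finite k (Algebra.adjoin k (Units.val '' T))) :
    ∀ S : Set Dˣ, S.Finite → S ⊆ (G : Set Dˣ) →
      Module.Finite k (Algebra.adjoin k (Units.val '' S)) := by
  have hN : LocFin k (φ.ker.map G.subtype) := by
    intro H hH hfg
    obtain ⟨T, rfl⟩ := hfg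
    apply finite_algOf_closure_of_finite_adjoin
    apply hker _ T.finite_toSet
    exact fun x hx => hH (Subgroup.subset_closure hx)
  have hG := main_ind hQ G φ hN
  intro S hS hSG
  have hle : Subgroup.closure S ≤ G := (Subgroup.closure_le G).mpr hSG
  have h2 := hG (Subgroup.closure S) hle ⟨hS.toFinset, by simp⟩
  have h3 : Algebra.adjoin k (Units.val '' S) ≤ algOf k (Subgroup.closure S) :=
    Algebra.adjoin_mono (Set.image_mono Subgroup.subset_closure)
  exact finite_of_le h3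

end Steps

end Vale.Agent.Lib.P199
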